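import Vale.Agent.P074.Final

/-- In every dimension at least two, one third is the greatest admissible exponent. -/
theorem Vale.Agent.Results.P074.OneThird.result (d : ℕ) (hd : 2 ≤ d) :
    IsGreatest {α : ℝ | 0 < α ∧ α ≤ 1 ∧ Vale.Agent.P074S.Admissible d α} (1 / 3) :=
  Vale.Agent.P074.final d hd
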